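import Vale.Agent.P134.Tr

/-! P134: the same for twice differentiable solutions (entire solutions of the eikonal equation are
affine). -/

noncomputable section

namespace Vale.Agent.P134

open Filter Topology

variable {n : ℕ}

theorem eik {ψ : EuclideanSpace ℝ (Fin n) → ℝ}
    {G : EuclideanSpace ℝ (Fin n) → EuclideanSpace ℝ (Fin n)} {c : ℝ} (hd : Differentiable ℝ ψ)
    (hG : ∀ x v, fderiv ℝ ψ x v = inner ℝ (G x) v) (c0 : 0 < c) (hc : ∀ x, ‖G x‖ = c)
    (z y : EuclideanSpace ℝ (Fin n)) : ψ z + inner ℝ (G z) (y - z) ≤ ψ y := by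
  have lip : ∀ x y, ψ x - ψ y ≤ c * ‖x - y‖ := fun x y =>
    (le_abs_self _).trans (convex_univ.norm_image_sub_le_of_norm_fderiv_le (𝕜 := ℝ)
      (fun x _ => hd x) (fun x _ => ContinuousLinearMap.opNorm_le_bound _ c0.le fun v => by
        rw [hG, ← hc x]
        exact norm_inner_le_norm _ _) (Set.mem_univ y) (Set.mem_univ x))
  have ray : ∀ w v, Tendsto (fun s : ℝ => s⁻¹ * (ψ (w + s • v) - ψ w)) (𝓝[>] 0)
      (𝓝 (inner ℝ (G w) v)) := fun w v => by
    have h1 : HasDerivAt (fun s : ℝ => w + s • v) v 0 := by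
      simpa using ((hasDerivAt_id (0 : ℝ)).smul_const v).const_add w
    have h2 := (hd (w + (0 : ℝ) • v)).hasFDerivAt.comp_hasDerivAt (0 : ℝ) h1
    simpa [hG] using h2.tendsto_slope_zero_right
  have ball : ∀ t, 0 < t → ∃ w, ‖w - z‖ ≤ t ∧ ψ z + c * t ≤ ψ w := fun t ht => by
    obtain ⟨w, hw, hm⟩ := (isCompact_closedBall z t).exists_isMaxOn
      ⟨z, Metric.mem_closedBall_self ht.le⟩ hd.continuous.continuousOn
    refine ⟨w, mem_closedBall_iff_norm.1 hw, le_of_forall_pos_le_add fun ε hε => ?_⟩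
    obtain ⟨μ, hμ⟩ : ∃ μ, μ = c - ε / t := ⟨_, rfl⟩
    have μ1 : μ < c := by
      have := div_pos hε ht
      linarith
    have μ2 : μ * t = c * t - ε := by
      rw [hμ]
      field_simp
    rcases le_or_gt μ 0 with μ0 | μ0
    · have a1 : ψ z ≤ ψ w := hm (Metric.mem_closedBall_self ht.le)
      have a2 := mul_nonpos_of_nonpos_of_nonneg μ0 ht.le
      linarith
    obtain ⟨p, hp, hq⟩ := (isCompact_closedBall z t).exists_isMaxOn
      (f := fun x => ψ x - μ * ‖x - z‖) ⟨z, Metric.mem_closedBall_self ht.le⟩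
      (hd.continuous.sub (by fun_prop)).continuousOn
    have a1 : ψ z - μ * ‖z - z‖ ≤ ψ p - μ * ‖p - z‖ := hq (Metric.mem_closedBall_self ht.le)
    have a2 : ψ p ≤ ψ w := hm hp
    have a3 : ‖p - z‖ = t := by
      refine (mem_closedBall_iff_norm.1 hp).eq_or_lt.resolve_right fun hlt => ?_
      have b1 : μ * c < inner ℝ (G p) (G p) := by
        rw [real_inner_self_eq_norm_mul_norm, hc]
        exact mul_lt_mul_of_pos_right μ1 c0
      obtain ⟨s, b2, s0, s1⟩ := (((ray p (G p)).eventually (lt_mem_nhds b1)).and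
        (Ioo_mem_nhdsGT (div_pos (sub_pos.2 hlt) c0))).exists
      rw [lt_div_iff₀ c0] at s1
      rw [lt_inv_mul_iff₀ s0] at b2
      have b3 : ‖p + s • G p - z‖ ≤ ‖p - z‖ + s * c := by
        rw [add_sub_right_comm]
        refine (norm_add_le _ _).trans_eq ?_
        rw [norm_smul, hc, Real.norm_of_nonneg s0.le]
      have b4 : ψ (p + s • G p) - μ * ‖p + s • G p - z‖ ≤ ψ p - μ * ‖p - z‖ :=
        hq (mem_closedBall_iff_norm.2 (by linarith))
      have b5 := mul_le_mul_of_nonneg_left b3 μ0.le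
      linarith
    rw [sub_self, norm_zero, mul_zero, a3] at a1
    linarith
  have main : ∀ t, 0 < t → ψ z + inner ℝ (G z) (y - z) ≤ ψ y + c * ‖y - z‖ ^ 2 / (2 * t) := by
    intro t ht
    obtain ⟨w, h1, h2⟩ := ball t ht
    obtain ⟨d, rfl⟩ : ∃ d, w = z + d := ⟨w - z, by abel⟩
    rw [add_sub_cancel_left] at h1
    have a1 : c * t ≤ inner ℝ (G z) d := by
      refine ge_of_tendsto (ray z d) ?_
      filter_upwards [Ioo_mem_nhdsGT (zero_lt_one' ℝ)] with s ⟨s0, s1⟩
      have b1 := lip (z + d) (z + s • d)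
      rw [show z + d - (z + s • d) = (1 - s) • d by module, norm_smul,
        Real.norm_of_nonneg (sub_pos.2 s1).le] at b1
      have b2 := mul_le_mul_of_nonneg_left h1 (mul_nonneg c0.le (sub_pos.2 s1).le)
      rw [le_inv_mul_iff₀ s0]
      linarith
    have a2 : c • d = t • G z := by
      rw [← sub_eq_zero, ← norm_eq_zero, ← sq_eq_zero_iff]
      refine le_antisymm ?_ (sq_nonneg _)
      rw [norm_sub_sq_real, norm_smul, norm_smul, hc, Real.norm_of_nonneg c0.le,
        Real.norm_of_nonneg ht.le, real_inner_smul_left, real_inner_smul_right, real_inner_comm]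
      have b1 := mul_le_mul_of_nonneg_left a1 (mul_pos c0 ht).le
      have b2 := pow_le_pow_left₀ (by positivity) (mul_le_mul_of_nonneg_left h1 c0.le) 2
      linarith
    have a3 := lip (z + d) y
    have a4 : c * inner ℝ d (y - z) = t * inner ℝ (G z) (y - z) := by
      rw [← real_inner_smul_left, a2, real_inner_smul_left]
    have a5 : ‖z + d - y‖ ^ 2 = ‖d‖ ^ 2 - 2 * inner ℝ d (y - z) + ‖y - z‖ ^ 2 := by
      rw [← norm_sub_sq_real]
      congr 2
      abel
    have a6 := pow_le_pow_left₀ (norm_nonneg _) h1 2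
    have a7 : 2 * t * ‖z + d - y‖ ≤ 2 * t ^ 2 - 2 * inner ℝ d (y - z) + ‖y - z‖ ^ 2 := by
      linarith [sq_nonneg (‖z + d - y‖ - t)]
    have a8 := mul_le_mul_of_nonneg_left a7 c0.le
    have a9 := mul_le_mul_of_nonneg_left (show c * t + ψ z - ψ y ≤ c * ‖z + d - y‖ by linarith)
      (by positivity : 0 ≤ 2 * t)
    rw [← sub_le_iff_le_add', le_div_iff₀ (by positivity)]
    linarith
  refine le_of_forall_pos_le_add fun ε hε => ?_
  refine (main (c * ‖y - z‖ ^ 2 / ε + 1) (by positivity)).trans (add_le_add le_rfl ?_)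
  rw [div_le_iff₀ (by positivity)]
  have e : ε * (2 * (c * ‖y - z‖ ^ 2 / ε + 1)) = 2 * (c * ‖y - z‖ ^ 2) + 2 * ε := by field_simp
  have : 0 ≤ c * ‖y - z‖ ^ 2 := by positivity
  rw [e]
  linarith

theorem mainC {u ψ : EuclideanSpace ℝ (Fin n) → ℝ} {h : ℝ → ℝ} (l : Fin n)
    (hu : ∀ x, lap u x = u x ^ 3 - u x) (hp : ∀ x, 0 < pd l u x) (hh : ContDiff ℝ 2 h)
    (hψ : ContDiff ℝ 2 ψ) (ht : ∀ x (t : ℝ), ψ (x + t • EuclideanSpace.single l 1) = ψ x + t)
    (e : ∀ x, u x = h (ψ x)) : ∃ (v : EuclideanSpace ℝ (Fin n)) (H : ℝ → ℝ), ‖v‖ = 1 ∧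
      ∀ x, u x = H (inner ℝ v x) := by
  obtain rfl : u = fun x => h (ψ x) := funext e
  have d0 : Differentiable ℝ ψ := hψ.differentiable (by norm_num)
  have d1 : ∀ i, Differentiable ℝ (pd i ψ) := fun i =>
    (pd_cd (k := 1) hψ i).differentiable (by norm_num)
  have g0 : Differentiable ℝ h := hh.differentiable (by norm_num)
  have g1 : Differentiable ℝ (deriv h) :=
    (hh.deriv' (n := 1)).differentiable (by norm_num)
  have hs : ∀ x s, ψ (x + (s - ψ x) • EuclideanSpace.single l 1) = s := fun x s => by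
    rw [ht, add_sub_cancel]
  rw [pd_comp g0 d0] at hp
  have h0 : ∀ s, deriv h s ≠ 0 := fun s => by
    have := left_ne_zero_of_mul (hp (0 + (s - ψ 0) • EuclideanSpace.single l 1)).ne'
    rwa [hs] at this
  have key : ∀ x s, deriv (deriv h) s * ∑ i, pd i ψ x * pd i ψ x + deriv h s * lap ψ x =
      h s ^ 3 - h s := fun x s => by
    have a1 := hu (x + (s - ψ x) • EuclideanSpace.single l 1)
    have a2 := fun i => pd_shift (fun y => ht y (s - ψ x)) i
    have a3 := fun i => pd_shift (a2 i) i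
    unfold lap at a1 ⊢
    simp only [pd_comp g0 d0, pd_mul (g1.fun_comp d0) (d1 _), pd_comp g1 d0, hs, a2, a3,
      add_zero] at a1
    rw [← a1, Finset.mul_sum, Finset.mul_sum, ← Finset.sum_add_distrib]
    exact Finset.sum_congr rfl fun i _ => by ring
  have ha : ∀ x, ∑ i, pd i ψ x * pd i ψ x = ∑ i, pd i ψ 0 * pd i ψ 0 := fun x => by
    by_contra hc
    have hc' := sub_ne_zero.2 hc
    have b1 : ∀ s, deriv (deriv h) s = (lap ψ 0 - lap ψ x) /
        (∑ i, pd i ψ x * pd i ψ x - ∑ i, pd i ψ 0 * pd i ψ 0) * deriv h s := fun s => by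
      rw [div_mul_eq_mul_div, eq_div_iff hc']
      linear_combination key x s - key 0 s
    generalize (lap ψ 0 - lap ψ x) /
      (∑ i, pd i ψ x * pd i ψ x - ∑ i, pd i ψ 0 * pd i ψ 0) = c at b1
    exact ode g0 g1 h0 b1 (k := c * ∑ i, pd i ψ 0 * pd i ψ 0 + lap ψ 0) fun s => by
      rw [← key 0 s, b1 s]
      ring
  obtain ⟨G, hG⟩ : ∃ G : EuclideanSpace ℝ (Fin n) → EuclideanSpace ℝ (Fin n),
      ∀ x v, fderiv ℝ ψ x v = inner ℝ (G x) v :=
    ⟨fun x => (InnerProductSpace.toDual ℝ _).symm (fderiv ℝ ψ x), fun x v =>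
      InnerProductSpace.toDual_symm_apply.symm⟩
  have hn : ∀ x, ‖G x‖ ^ 2 = ∑ i, pd i ψ x * pd i ψ x := fun x => by
    rw [EuclideanSpace.real_norm_sq_eq]
    refine Finset.sum_congr rfl fun i _ => ?_
    rw [pd, hG, EuclideanSpace.inner_single_right, sq]
    simp
  have w0 : ‖G 0‖ ≠ 0 := fun hc => right_ne_zero_of_mul (hp 0).ne' (by
    rw [pd, hG, norm_eq_zero.1 hc, inner_zero_left])
  have hc : ∀ x, ‖G x‖ = ‖G 0‖ := fun x =>
    (pow_left_inj₀ (norm_nonneg _) (norm_nonneg _) two_ne_zero).1 (by rw [hn, hn, ha])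
  have c0 : 0 < ‖G 0‖ := (norm_nonneg _).lt_of_ne' w0
  have af : ∀ x, ψ x = ψ 0 + inner ℝ (G 0) x := fun x => by
    have b1 := eik d0 hG c0 hc 0 x
    have b2 := eik (ψ := fun y => -ψ y) (G := fun y => -G y) d0.fun_neg
      (fun y v => by rw [fderiv_fun_neg, neg_apply, hG, inner_neg_left]) c0
      (fun y => by rw [norm_neg, hc]) 0 x
    rw [inner_neg_left] at b2
    rw [sub_zero] at b1 b2
    linarith
  refine ⟨‖G 0‖⁻¹ • G 0, fun s => h (ψ 0 + ‖G 0‖ * s), by rw [norm_smul, norm_inv, norm_norm,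
    inv_mul_cancel₀ w0], fun x => ?_⟩
  show h (ψ x) = h _
  rw [real_inner_smul_left, mul_inv_cancel_left₀ w0, ← af x]

theorem lineC {u : EuclideanSpace ℝ (Fin n) → ℝ} (l : Fin n) (hu : ContDiff ℝ 2 u)
    (x : EuclideanSpace ℝ (Fin n)) (s : ℝ) :
    HasStrictDerivAt (fun t : ℝ => u (x + t • EuclideanSpace.single l 1))
      (pd l u (x + s • EuclideanSpace.single l 1)) s := by
  have h1 : HasStrictDerivAt (fun t : ℝ => x + t • EuclideanSpace.single l (1 : ℝ))
      (EuclideanSpace.single l (1 : ℝ)) s := by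
    simpa using ((hasStrictDerivAt_id s).smul_const (EuclideanSpace.single l (1 : ℝ))).const_add x
  exact (hu.contDiffAt.hasStrictFDerivAt (by norm_num)).comp_hasStrictDerivAt s h1

theorem main2C {u : EuclideanSpace ℝ (Fin n) → ℝ} (l : Fin n) (hc : ContDiff ℝ 2 u)
    (hu : ∀ x, lap u x = u x ^ 3 - u x) (hp : ∀ x, 0 < pd l u x)
    (ht : ∀ x y, u x = u y → ∀ t : ℝ,
      u (x + t • EuclideanSpace.single l 1) = u (y + t • EuclideanSpace.single l 1)) :
    ∃ (v : EuclideanSpace ℝ (Fin n)) (H : ℝ → ℝ), ‖v‖ = 1 ∧ ∀ x, u x = H (inner ℝ v x) := by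
  have op : ∀ x, IsOpenMap fun t : ℝ => u (x + t • EuclideanSpace.single l 1) := fun x =>
    isOpenMap_of_hasStrictDerivAt (lineC l hc x) fun s => (hp _).ne'
  obtain ⟨h, hh⟩ : ∃ h : ℝ → ℝ, h = fun t : ℝ => u (0 + t • EuclideanSpace.single l 1) := ⟨_, rfl⟩
  have hd : ∀ s, HasDerivAt h (pd l u (0 + s • EuclideanSpace.single l 1)) s := fun s =>
    hh ▸ (lineC l hc 0 s).hasDerivAt
  have h3 : ContDiff ℝ 2 h := hh ▸ hc.comp (contDiff_const.add (contDiff_id.smul contDiff_const))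
  have hm : StrictMono h := strictMono_of_deriv_pos fun s => by
    rw [(hd s).deriv]
    exact hp _
  have ho : Topology.IsOpenEmbedding h :=
    .of_continuous_injective_isOpenMap h3.continuous hm.injective (hh ▸ op 0)
  have hr : ∀ x, u x ∈ Set.range h := by
    have a1 : IsOpen (u ⁻¹' Set.range h) := ho.isOpen_range.preimage hc.continuous
    have a2 : IsClosed (u ⁻¹' Set.range h) := by
      rw [← isOpen_compl_iff, isOpen_iff_mem_nhds]
      intro x hx
      have b1 := ((op x).isOpen_range.preimage hc.continuous).mem_nhds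
        (show x ∈ _ from ⟨0, by simp⟩)
      filter_upwards [b1] with y ⟨t, hy⟩ ⟨s, hs⟩
      refine hx ⟨s - t, ?_⟩
      have b2 := ht (0 + s • EuclideanSpace.single l 1) (x + t • EuclideanSpace.single l 1)
        (by rw [hh] at hs; exact hs.trans hy.symm) (-t)
      rw [add_assoc, add_assoc, ← add_smul, ← add_smul, add_neg_cancel, zero_smul, add_zero] at b2
      rw [hh, sub_eq_add_neg]
      exact b2
    have a3 := IsClopen.eq_univ ⟨a2, a1⟩ ⟨0, 0, by simp [hh]⟩
    exact fun x => (a3 ▸ Set.mem_univ x : x ∈ u ⁻¹' Set.range h)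
  have f1 : ∀ x, h ((ho.toOpenPartialHomeomorph h).symm (u x)) = u x := fun x =>
    ho.toOpenPartialHomeomorph_right_inv h (hr x)
  refine mainC (h := h) (ψ := fun x => (ho.toOpenPartialHomeomorph h).symm (u x)) l hu hp
    h3 (contDiff_iff_contDiffAt.2 fun x => ?_) (fun x t => hm.injective ?_)
    fun x => (f1 x).symm
  · refine ContDiffAt.comp x ((ho.toOpenPartialHomeomorph h).contDiffAt_symm_deriv (hp _).ne'
      (by simpa using hr x) (hd _) h3.contDiffAt) hc.contDiffAt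
  · have b1 := f1 x
    rw [f1]
    generalize (ho.toOpenPartialHomeomorph h).symm (u x) = s at b1
    rw [hh] at b1 ⊢
    have b2 := ht _ _ b1 t
    rw [add_assoc, ← add_smul] at b2
    exact b2.symm

end Vale.Agent.P134
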