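import Vale.Agent.P134.Inf

/-! P134: the length of the gradient is constant on level sets. -/

noncomputable section

namespace Vale.Agent.P134

open Filter Topology

variable {n : ℕ}

theorem main4 {u : EuclideanSpace ℝ (Fin n) → ℝ} (l : Fin n) (hc : ContDiff ℝ 2 u)
    (hp : ∀ x, 0 < pd l u x)
    (ht : ∀ x y, u x = u y → ∑ i, pd i u x ^ 2 = ∑ i, pd i u y ^ 2) :
    ∃ (v : EuclideanSpace ℝ (Fin n)) (H : ℝ → ℝ), ‖v‖ = 1 ∧ ∀ x, u x = H (inner ℝ v x) := by
  have d0 : Differentiable ℝ u := hc.differentiable (by norm_num)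
  obtain ⟨G, hG⟩ : ∃ G : EuclideanSpace ℝ (Fin n) → EuclideanSpace ℝ (Fin n),
      ∀ x v, fderiv ℝ u x v = inner ℝ (G x) v :=
    ⟨fun x => (InnerProductSpace.toDual ℝ _).symm (fderiv ℝ u x), fun x v =>
      InnerProductSpace.toDual_symm_apply.symm⟩
  have hn : ∀ x, ‖G x‖ = √(∑ i, pd i u x ^ 2) := fun x => by
    rw [← Real.sqrt_sq (norm_nonneg (G x)), EuclideanSpace.real_norm_sq_eq]
    refine congrArg _ (Finset.sum_congr rfl fun i _ => ?_)
    rw [pd, hG, EuclideanSpace.inner_single_right]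
    simp
  have w0 : ∀ x, ‖G x‖ ≠ 0 := fun x hc => (hp x).ne' (by
    rw [pd, hG, norm_eq_zero.1 hc, inner_zero_left])
  have cN : Continuous fun x => ‖G x‖⁻¹ := by
    refine Continuous.inv₀ ?_ w0
    rw [funext hn]
    exact (continuous_finsetSum _ fun i _ => (pd_cd (k := 1) hc i).continuous.pow 2).sqrt
  obtain ⟨F, hF⟩ : ∃ F : ℝ → ℝ, ∀ x, F (u x) = ‖G x‖⁻¹ :=
    ⟨Function.extend u (fun x => ‖G x‖⁻¹) 0, fun x =>
      Function.FactorsThrough.extend_apply (fun a b h => by rw [hn, hn, ht a b h]) _ x⟩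
  have ho : ∀ x, IsOpenEmbedding fun t : ℝ => u (x + t • EuclideanSpace.single l 1) := fun x =>
    .of_continuous_injective_isOpenMap (hc.continuous.comp (by fun_prop))
      (strictMono_of_deriv_pos fun s => by
        rw [(lineC l hc x s).hasDerivAt.deriv]
        exact hp _).injective
      (isOpenMap_of_hasStrictDerivAt (lineC l hc x) fun s => (hp _).ne')
  have r1 : IsOpen (Set.range u) := isOpen_iff_mem_nhds.2 fun _ ⟨x, hx⟩ =>
    mem_of_superset ((ho x).isOpen_range.mem_nhds ⟨0, by simpa using hx⟩)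
      fun _ ⟨t, ht⟩ => ⟨_, ht⟩
  have r2 : (Set.range u).OrdConnected := (isPreconnected_range hc.continuous).ordConnected
  have cF : ContinuousOn F (Set.range u) := fun _ ⟨x, hx⟩ => by
    have b1 : ContinuousAt (F ∘ fun t : ℝ => u (x + t • EuclideanSpace.single l 1)) 0 := by
      have : (F ∘ fun t : ℝ => u (x + t • EuclideanSpace.single l 1)) =
          fun t : ℝ => ‖G (x + t • EuclideanSpace.single l 1)‖⁻¹ := funext fun t => hF _
      rw [this]
      exact (cN.comp (by fun_prop)).continuousAt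
    have b2 := (ho x).continuousAt_iff.1 b1
    rw [zero_smul, add_zero, hx] at b2
    exact b2.continuousWithinAt
  have dΦ : ∀ r ∈ Set.range u, HasDerivAt (fun r => ∫ s in u 0..r, F s) (F r) r := fun r hr =>
    intervalIntegral.integral_hasDerivAt_right
      (cF.mono (r2.uIcc_subset ⟨0, rfl⟩ hr)).intervalIntegrable
      (cF.stronglyMeasurableAtFilter r1 r hr) (cF.continuousAt (r1.mem_nhds hr))
  generalize (fun r => ∫ s in u 0..r, F s) = Φ at dΦ
  have mΦ : StrictMonoOn Φ (Set.range u) := strictMonoOn_of_deriv_pos r2.convex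
    (fun r hr => (dΦ r hr).continuousAt.continuousWithinAt) fun r hr => by
      obtain ⟨x, rfl⟩ := interior_subset hr
      rw [(dΦ _ ⟨x, rfl⟩).deriv, hF]
      exact inv_pos.2 ((norm_nonneg _).lt_of_ne' (w0 x))
  have dψ : ∀ x, HasFDerivAt (Φ ∘ u) (F (u x) • fderiv ℝ u x) x := fun x =>
    (dΦ _ ⟨x, rfl⟩).comp_hasFDerivAt x (d0 x).hasFDerivAt
  have d1 : Differentiable ℝ (Φ ∘ u) := fun x => (dψ x).differentiableAt
  have g1 : ∀ x v, fderiv ℝ (Φ ∘ u) x v = inner ℝ (‖G x‖⁻¹ • G x) v := fun x v => by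
    rw [(dψ x).fderiv, real_inner_smul_left, ← hG, hF]
    rfl
  have g2 : ∀ x, ‖‖G x‖⁻¹ • G x‖ = 1 := fun x => by
    rw [norm_smul, norm_inv, norm_norm, inv_mul_cancel₀ (w0 x)]
  have af : ∀ x, Φ (u x) = Φ (u 0) + inner ℝ (‖G 0‖⁻¹ • G 0) x := fun x => by
    have b1 := eik d1 g1 one_pos g2 0 x
    have b2 := eik (ψ := fun y => -(Φ ∘ u) y) (G := fun y => -(‖G y‖⁻¹ • G y)) d1.fun_neg
      (fun y v => by rw [fderiv_fun_neg, neg_apply, g1, inner_neg_left]) one_pos
      (fun y => by rw [norm_neg, g2]) 0 x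
    rw [inner_neg_left] at b2
    rw [sub_zero] at b1 b2
    simp only [Function.comp_apply] at b1 b2
    linarith
  refine ⟨‖G 0‖⁻¹ • G 0, fun s => Function.invFunOn Φ (Set.range u) (Φ (u 0) + s), g2 0,
    fun x => ?_⟩
  show u x = Function.invFunOn Φ (Set.range u) _
  rw [← af x]
  exact (mΦ.injOn.leftInvOn_invFunOn ⟨x, rfl⟩).symm

end Vale.Agent.P134
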