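import Vale.Agent.P134.C2

/-! P134: derivatives that are constant on level sets. -/

noncomputable section

namespace Vale.Agent.P134

open Filter Topology

variable {n : ℕ}

theorem uniq {f g f' g' : ℝ → ℝ} (hf : ∀ s, HasStrictDerivAt f (f' s) s)
    (hg : ∀ s, HasDerivAt g (g' s) s) (h0 : ∀ s, 0 < f' s) (h : ∀ s t, f s = g t → f' s = g' t)
    (e : f 0 = g 0) (t : ℝ) : f t = g t := by
  have cf : Continuous f := continuous_iff_continuousAt.2 fun s => (hf s).hasDerivAt.continuousAt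
  have cg : Continuous g := continuous_iff_continuousAt.2 fun s => (hg s).continuousAt
  have hm : StrictMono f := strictMono_of_deriv_pos fun s => by
    rw [(hf s).hasDerivAt.deriv]
    exact h0 s
  have ho : IsOpenEmbedding f := .of_continuous_injective_isOpenMap cf hm.injective
    (isOpenMap_of_hasStrictDerivAt hf fun s => (h0 s).ne')
  have a1 : IsOpen {t | f t = g t} := by
    rw [Metric.isOpen_iff]
    intro t₀ ht₀
    obtain ⟨ε, ε0, hε⟩ := Metric.isOpen_iff.1 (ho.isOpen_range.preimage cg) t₀ ⟨t₀, ht₀⟩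
    have f1 : ∀ s ∈ Metric.ball t₀ ε, f ((ho.toOpenPartialHomeomorph f).symm (g s)) = g s :=
      fun s hs => ho.toOpenPartialHomeomorph_right_inv f (hε hs)
    have f2 : ∀ s ∈ Metric.ball t₀ ε,
        HasDerivAt (fun s => (ho.toOpenPartialHomeomorph f).symm (g s) - s) 0 s := fun s hs => by
      have b1 := (((ho.toOpenPartialHomeomorph f).hasDerivAt_symm (a := g s)
        (by simpa using hε hs) (h0 _).ne' (hf _).hasDerivAt).comp s (hg s)).fun_sub (hasDerivAt_id s)
      rwa [← h _ _ (f1 s hs), inv_mul_cancel₀ (h0 _).ne', sub_self] at b1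
    refine ⟨ε, ε0, fun s hs => ?_⟩
    have b2 := Metric.isOpen_ball.is_const_of_deriv_eq_zero (convex_ball t₀ ε).isPreconnected
      (fun s hs => (f2 s hs).differentiableAt.differentiableWithinAt)
      (fun s hs => (f2 s hs).deriv) hs (Metric.mem_ball_self ε0)
    have b3 := hm.injective ((f1 t₀ (Metric.mem_ball_self ε0)).trans (Eq.symm ht₀))
    rw [b3, sub_self, sub_eq_zero] at b2
    have b4 := f1 s hs
    rwa [b2] at b4
  have a2 := IsClopen.eq_univ ⟨isClosed_eq cf cg, a1⟩ ⟨0, e⟩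
  exact (a2 ▸ Set.mem_univ t : t ∈ {t | f t = g t})

theorem main3 {u : EuclideanSpace ℝ (Fin n) → ℝ} (l : Fin n) (hc : ContDiff ℝ 2 u)
    (hu : ∀ x, lap u x = u x ^ 3 - u x) (hp : ∀ x, 0 < pd l u x)
    (ht : ∀ x y, u x = u y → pd l u x = pd l u y) :
    ∃ (v : EuclideanSpace ℝ (Fin n)) (H : ℝ → ℝ), ‖v‖ = 1 ∧ ∀ x, u x = H (inner ℝ v x) :=
  main2C l hc hu hp fun x y h t => uniq (lineC l hc x) (fun s => (lineC l hc y s).hasDerivAt)
    (fun _ => hp _) (fun _ _ e => ht _ _ e) (by simpa using h) t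

end Vale.Agent.P134
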