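import Mathlib

/-! P134: solutions whose level sets are vertical translates of one another. -/

noncomputable section

namespace Vale.Agent.P134

/-- The derivative of `f` in the direction of the `i`-th coordinate. -/
def pd {n : ℕ} (i : Fin n) (f : EuclideanSpace ℝ (Fin n) → ℝ) (x : EuclideanSpace ℝ (Fin n)) : ℝ :=
  fderiv ℝ f x (EuclideanSpace.single i 1)

/-- The Laplacian. -/
def lap {n : ℕ} (f : EuclideanSpace ℝ (Fin n) → ℝ) (x : EuclideanSpace ℝ (Fin n)) : ℝ :=
  ∑ i, pd i (pd i f) x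

variable {n : ℕ} {f g : EuclideanSpace ℝ (Fin n) → ℝ} {i j : Fin n}

theorem pd_cd {k : ℕ} (hf : ContDiff ℝ (k + 1 : ℕ) f) (i : Fin n) : ContDiff ℝ k (pd i f) :=
  (hf.fderiv_right (m := k) (by exact_mod_cast le_rfl)).clm_apply contDiff_const

theorem pd_comm (hf : ContDiff ℝ 2 f) (i j : Fin n) : pd i (pd j f) = pd j (pd i f) := by
  funext x
  have hd : HasFDerivAt (fderiv ℝ f) (fderiv ℝ (fderiv ℝ f) x) x :=
    ((hf.fderiv_right (m := 1) (by norm_num)).differentiable (by norm_num) x).hasFDerivAt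
  have key : ∀ a b : Fin n, pd a (pd b f) x =
      fderiv ℝ (fderiv ℝ f) x (EuclideanSpace.single a 1) (EuclideanSpace.single b 1) := fun a b => by
    have h := ((ContinuousLinearMap.apply ℝ ℝ (EuclideanSpace.single b (1 : ℝ))).hasFDerivAt.comp
      x hd).fderiv
    exact congrArg (fun L : EuclideanSpace ℝ (Fin n) →L[ℝ] ℝ => L (EuclideanSpace.single a 1)) h
  rw [key, key]
  exact hf.contDiffAt.isSymmSndFDerivAt (by simp) _ _

theorem pd_mul (hf : Differentiable ℝ f) (hg : Differentiable ℝ g) (i : Fin n) :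
    pd i (fun x => f x * g x) = fun x => f x * pd i g x + g x * pd i f x := by
  funext x
  unfold pd
  rw [((hf x).hasFDerivAt.fun_mul (hg x).hasFDerivAt).fderiv]
  simp

theorem pd_sum {F : Fin n → EuclideanSpace ℝ (Fin n) → ℝ} (hF : ∀ j, Differentiable ℝ (F j))
    (i : Fin n) : pd i (fun x => ∑ j, F j x) = fun x => ∑ j, pd i (F j) x := by
  funext x
  unfold pd
  rw [(HasFDerivAt.fun_sum fun j _ => (hF j x).hasFDerivAt).fderiv]
  simp

theorem pd_comp {h : ℝ → ℝ} (hh : Differentiable ℝ h) (hf : Differentiable ℝ f) (i : Fin n) :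
    pd i (fun x => h (f x)) = fun x => deriv h (f x) * pd i f x := by
  funext x
  unfold pd
  have := ((hh (f x)).hasDerivAt.comp_hasFDerivAt x (hf x).hasFDerivAt).fderiv
  rw [show (fun x => h (f x)) = h ∘ f from rfl, this]
  simp

theorem pd_const (c : ℝ) (i : Fin n) : pd i (fun _ => c) = fun _ => 0 := by
  funext x
  simp [pd]

theorem pd_shift {v : EuclideanSpace ℝ (Fin n)} {c : ℝ} (h : ∀ x, f (x + v) = f x + c) (i : Fin n)
    (x : EuclideanSpace ℝ (Fin n)) : pd i f (x + v) = pd i f x + 0 := by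
  unfold pd
  rw [← fderiv_comp_add_right, funext h, fderiv_add_const, add_zero]

theorem fd_ext {x y : EuclideanSpace ℝ (Fin n)} (h : ∀ i, pd i f x = pd i g y) :
    fderiv ℝ f x = fderiv ℝ g y :=
  ContinuousLinearMap.coe_injective ((EuclideanSpace.basisFun (Fin n) ℝ).toBasis.ext fun i => by
    simpa [pd] using h i)

theorem affine (hf : ContDiff ℝ 3 f) {a b : ℝ} (ha : ∀ x, ∑ i, pd i f x * pd i f x = a)
    (hb : ∀ x, lap f x = b) (x : EuclideanSpace ℝ (Fin n)) : f x = f 0 + fderiv ℝ f 0 x := by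
  have c2 : ∀ i, ContDiff ℝ 2 (pd i f) := fun i => pd_cd (k := 2) hf i
  have c1 : ∀ i j, ContDiff ℝ 1 (pd j (pd i f)) := fun i j => pd_cd (k := 1) (c2 i) j
  have d0 : Differentiable ℝ f := hf.differentiable (by norm_num)
  have d1 : ∀ i, Differentiable ℝ (pd i f) := fun i => (c2 i).differentiable (by norm_num)
  have d2 : ∀ i j, Differentiable ℝ (pd j (pd i f)) := fun i j =>
    (c1 i j).differentiable (by norm_num)
  have e1 : ∀ j y, ∑ i, pd i f y * pd j (pd i f) y = 0 := fun j y => by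
    have h := congrFun (pd_sum (fun i => (d1 i).fun_mul (d1 i)) j) y
    rw [funext ha, pd_const] at h
    simp only [pd_mul (d1 _) (d1 _), Finset.sum_add_distrib] at h
    linarith
  have e2 : ∀ j y, ∑ i, (pd i f y * pd i (pd j (pd j f)) y + pd j (pd i f) y * pd j (pd i f) y) = 0 :=
    fun j y => by
      have h := congrFun (pd_sum (fun i => (d1 i).fun_mul (d2 i j)) j) y
      rw [funext (e1 j), pd_const] at h
      simp only [pd_mul (d1 _) (d2 _ _)] at h
      rw [h]
      refine Finset.sum_congr rfl fun i _ => ?_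
      rw [pd_comm (c2 j) i j, pd_comm (hf.of_le (by norm_num)) i j]
  have e3 : ∀ i y, ∑ j, pd i (pd j (pd j f)) y = 0 := fun i y => by
    have h := congrFun (pd_sum (fun j => d2 j j) i) y
    rw [show (fun x => ∑ j, pd j (pd j f) x) = fun _ => b from funext hb, pd_const] at h
    exact h.symm
  have e4 : ∀ i j y, pd j (pd i f) y = 0 := fun i j y => by
    have h : ∑ j, ∑ i, pd j (pd i f) y * pd j (pd i f) y = 0 := by
      have h1 := Finset.sum_eq_zero (s := Finset.univ) fun j _ => e2 j y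
      simp only [Finset.sum_add_distrib] at h1
      rw [Finset.sum_comm] at h1
      simp only [← Finset.mul_sum, e3, mul_zero, Finset.sum_const_zero, zero_add] at h1
      exact h1
    have h2 := (Finset.sum_eq_zero_iff_of_nonneg fun j _ =>
      Finset.sum_nonneg fun i _ => mul_self_nonneg _).1 h j (Finset.mem_univ j)
    exact mul_self_eq_zero.1 ((Finset.sum_eq_zero_iff_of_nonneg fun i _ =>
      mul_self_nonneg _).1 h2 i (Finset.mem_univ i))
  have e5 : ∀ y, fderiv ℝ f y = fderiv ℝ f 0 := fun y => fd_ext fun i =>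
    is_const_of_fderiv_eq_zero (d1 i) (fun z => (fd_ext (g := fun _ => (0 : ℝ)) (y := z) fun j => by
      rw [e4, pd_const]).trans (by simp)) y 0
  have e6 := is_const_of_fderiv_eq_zero (𝕜 := ℝ) (f := fun y => f y - fderiv ℝ f 0 y)
    (d0.fun_sub (fderiv ℝ f 0).differentiable) (fun y => by
      rw [((d0 y).hasFDerivAt.fun_sub (fderiv ℝ f 0).hasFDerivAt).fderiv, e5, sub_self]) x 0
  simp only [map_zero, sub_zero] at e6
  linarith

theorem ode {h : ℝ → ℝ} (hh : Differentiable ℝ h) (h1 : Differentiable ℝ (deriv h))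
    (h0 : ∀ s, deriv h s ≠ 0) {c k : ℝ} (e1 : ∀ s, deriv (deriv h) s = c * deriv h s)
    (e2 : ∀ s, k * deriv h s = h s ^ 3 - h s) : False := by
  have a1 : ∀ s, k * c = 3 * h s ^ 2 - 1 := fun s => by
    have b1 := ((h1 s).hasDerivAt.const_mul k)
    have b2 := (((hh s).hasDerivAt.fun_pow 3).fun_sub (hh s).hasDerivAt)
    rw [funext e2] at b1
    have b3 := b1.unique b2
    rw [e1] at b3
    refine mul_right_cancel₀ (h0 s) ?_
    norm_num at b3
    linear_combination b3
  have a2 : ∀ s, h s = 0 := fun s => by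
    have b2 := (((hh s).hasDerivAt.fun_pow 2).const_mul 3).sub_const 1
    rw [← funext a1] at b2
    have b3 := b2.unique (hasDerivAt_const s _)
    norm_num at b3
    exact b3.resolve_right (h0 s)
  exact h0 0 (by rw [funext a2]; simp)

theorem main {u ψ : EuclideanSpace ℝ (Fin n) → ℝ} {h : ℝ → ℝ} (l : Fin n)
    (hu : ∀ x, lap u x = u x ^ 3 - u x) (hp : ∀ x, 0 < pd l u x) (hh : ContDiff ℝ 2 h)
    (hψ : ContDiff ℝ 3 ψ) (ht : ∀ x (t : ℝ), ψ (x + t • EuclideanSpace.single l 1) = ψ x + t)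
    (e : ∀ x, u x = h (ψ x)) : ∃ (v : EuclideanSpace ℝ (Fin n)) (H : ℝ → ℝ), ‖v‖ = 1 ∧
      ∀ x, u x = H (inner ℝ v x) := by
  obtain rfl : u = fun x => h (ψ x) := funext e
  have d0 : Differentiable ℝ ψ := hψ.differentiable (by norm_num)
  have d1 : ∀ i, Differentiable ℝ (pd i ψ) := fun i =>
    (pd_cd (k := 2) hψ i).differentiable (by norm_num)
  have g0 : Differentiable ℝ h := hh.differentiable (by norm_num)
  have g1 : Differentiable ℝ (deriv h) :=
    (hh.deriv' (n := 1)).differentiable (by norm_num)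
  have hs : ∀ x s, ψ (x + (s - ψ x) • EuclideanSpace.single l 1) = s := fun x s => by
    rw [ht, add_sub_cancel]
  rw [pd_comp g0 d0] at hp
  have h0 : ∀ s, deriv h s ≠ 0 := fun s => by
    have := left_ne_zero_of_mul (hp (0 + (s - ψ 0) • EuclideanSpace.single l 1)).ne'
    rwa [hs] at this
  have key : ∀ x s, deriv (deriv h) s * ∑ i, pd i ψ x * pd i ψ x + deriv h s * lap ψ x =
      h s ^ 3 - h s := fun x s => by
    have a1 := hu (x + (s - ψ x) • EuclideanSpace.single l 1)
    have a2 := fun i => pd_shift (fun y => ht y (s - ψ x)) i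
    have a3 := fun i => pd_shift (a2 i) i
    unfold lap at a1 ⊢
    simp only [pd_comp g0 d0, pd_mul (g1.fun_comp d0) (d1 _), pd_comp g1 d0, hs, a2, a3,
      add_zero] at a1
    rw [← a1, Finset.mul_sum, Finset.mul_sum, ← Finset.sum_add_distrib]
    exact Finset.sum_congr rfl fun i _ => by ring
  have ha : ∀ x, ∑ i, pd i ψ x * pd i ψ x = ∑ i, pd i ψ 0 * pd i ψ 0 := fun x => by
    by_contra hc
    have hc' := sub_ne_zero.2 hc
    have b1 : ∀ s, deriv (deriv h) s = (lap ψ 0 - lap ψ x) /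
        (∑ i, pd i ψ x * pd i ψ x - ∑ i, pd i ψ 0 * pd i ψ 0) * deriv h s := fun s => by
      rw [div_mul_eq_mul_div, eq_div_iff hc']
      linear_combination key x s - key 0 s
    generalize (lap ψ 0 - lap ψ x) /
      (∑ i, pd i ψ x * pd i ψ x - ∑ i, pd i ψ 0 * pd i ψ 0) = c at b1
    exact ode g0 g1 h0 b1 (k := c * ∑ i, pd i ψ 0 * pd i ψ 0 + lap ψ 0) fun s => by
      rw [← key 0 s, b1 s]
      ring
  have hb : ∀ x, lap ψ x = lap ψ 0 := fun x => mul_left_cancel₀ (h0 0) (by
    have b1 := key x 0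
    rw [ha] at b1
    linear_combination b1 - key 0 0)
  obtain ⟨w, hw⟩ : ∃ w : EuclideanSpace ℝ (Fin n), ∀ x, inner ℝ w x = fderiv ℝ ψ 0 x :=
    ⟨(InnerProductSpace.toDual ℝ _).symm (fderiv ℝ ψ 0), fun x =>
      InnerProductSpace.toDual_symm_apply⟩
  have w0 : ‖w‖ ≠ 0 := fun hc => right_ne_zero_of_mul (hp 0).ne' (by
    rw [pd, ← hw, norm_eq_zero.1 hc, inner_zero_left])
  refine ⟨‖w‖⁻¹ • w, fun s => h (ψ 0 + ‖w‖ * s), by rw [norm_smul, norm_inv, norm_norm,
    inv_mul_cancel₀ w0], fun x => ?_⟩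
  show h (ψ x) = h _
  rw [real_inner_smul_left, mul_inv_cancel_left₀ w0, hw, ← affine hψ ha hb x]

theorem line {u : EuclideanSpace ℝ (Fin n) → ℝ} (l : Fin n) (hu : ContDiff ℝ 3 u)
    (x : EuclideanSpace ℝ (Fin n)) (s : ℝ) :
    HasStrictDerivAt (fun t : ℝ => u (x + t • EuclideanSpace.single l 1))
      (pd l u (x + s • EuclideanSpace.single l 1)) s := by
  have h1 : HasStrictDerivAt (fun t : ℝ => x + t • EuclideanSpace.single l (1 : ℝ))
      (EuclideanSpace.single l (1 : ℝ)) s := by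
    simpa using ((hasStrictDerivAt_id s).smul_const (EuclideanSpace.single l (1 : ℝ))).const_add x
  exact (hu.contDiffAt.hasStrictFDerivAt (by norm_num)).comp_hasStrictDerivAt s h1

theorem main2 {u : EuclideanSpace ℝ (Fin n) → ℝ} (l : Fin n) (hc : ContDiff ℝ 3 u)
    (hu : ∀ x, lap u x = u x ^ 3 - u x) (hp : ∀ x, 0 < pd l u x)
    (ht : ∀ x y, u x = u y → ∀ t : ℝ,
      u (x + t • EuclideanSpace.single l 1) = u (y + t • EuclideanSpace.single l 1)) :
    ∃ (v : EuclideanSpace ℝ (Fin n)) (H : ℝ → ℝ), ‖v‖ = 1 ∧ ∀ x, u x = H (inner ℝ v x) := by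
  have op : ∀ x, IsOpenMap fun t : ℝ => u (x + t • EuclideanSpace.single l 1) := fun x =>
    isOpenMap_of_hasStrictDerivAt (line l hc x) fun s => (hp _).ne'
  obtain ⟨h, hh⟩ : ∃ h : ℝ → ℝ, h = fun t : ℝ => u (0 + t • EuclideanSpace.single l 1) := ⟨_, rfl⟩
  have hd : ∀ s, HasDerivAt h (pd l u (0 + s • EuclideanSpace.single l 1)) s := fun s =>
    hh ▸ (line l hc 0 s).hasDerivAt
  have h3 : ContDiff ℝ 3 h := hh ▸ hc.comp (contDiff_const.add (contDiff_id.smul contDiff_const))
  have hm : StrictMono h := strictMono_of_deriv_pos fun s => by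
    rw [(hd s).deriv]
    exact hp _
  have ho : Topology.IsOpenEmbedding h :=
    .of_continuous_injective_isOpenMap h3.continuous hm.injective (hh ▸ op 0)
  have hr : ∀ x, u x ∈ Set.range h := by
    have a1 : IsOpen (u ⁻¹' Set.range h) := ho.isOpen_range.preimage hc.continuous
    have a2 : IsClosed (u ⁻¹' Set.range h) := by
      rw [← isOpen_compl_iff, isOpen_iff_mem_nhds]
      intro x hx
      have b1 := ((op x).isOpen_range.preimage hc.continuous).mem_nhds
        (show x ∈ _ from ⟨0, by simp⟩)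
      filter_upwards [b1] with y ⟨t, hy⟩ ⟨s, hs⟩
      refine hx ⟨s - t, ?_⟩
      have b2 := ht (0 + s • EuclideanSpace.single l 1) (x + t • EuclideanSpace.single l 1)
        (by rw [hh] at hs; exact hs.trans hy.symm) (-t)
      rw [add_assoc, add_assoc, ← add_smul, ← add_smul, add_neg_cancel, zero_smul, add_zero] at b2
      rw [hh, sub_eq_add_neg]
      exact b2
    have a3 := IsClopen.eq_univ ⟨a2, a1⟩ ⟨0, 0, by simp [hh]⟩
    exact fun x => (a3 ▸ Set.mem_univ x : x ∈ u ⁻¹' Set.range h)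
  have f1 : ∀ x, h ((ho.toOpenPartialHomeomorph h).symm (u x)) = u x := fun x =>
    ho.toOpenPartialHomeomorph_right_inv h (hr x)
  refine main (h := h) (ψ := fun x => (ho.toOpenPartialHomeomorph h).symm (u x)) l hu hp
    (h3.of_le (by norm_num)) (contDiff_iff_contDiffAt.2 fun x => ?_) (fun x t => hm.injective ?_)
    fun x => (f1 x).symm
  · refine ContDiffAt.comp x ((ho.toOpenPartialHomeomorph h).contDiffAt_symm_deriv (hp _).ne'
      (by simpa using hr x) (hd _) h3.contDiffAt) hc.contDiffAt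
  · have b1 := f1 x
    rw [f1]
    generalize (ho.toOpenPartialHomeomorph h).symm (u x) = s at b1
    rw [hh] at b1 ⊢
    have b2 := ht _ _ b1 t
    rw [add_assoc, ← add_smul] at b2
    exact b2.symm

end Vale.Agent.P134
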